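import Vale.Agent.Lib.P034b.Forest

/-!
# P034: Talagrand's fractional-versus-integral conjecture for the property of containing a copy of a forest

Let `H` be a forest with at least one edge on the vertex set `Fin n` (arbitrary degrees, `H` may span
all `n` vertices), let `X` be the edge set of the complete graph `K_n` and let `F_H ⊆ 2^X` be the
increasing family of all edge sets containing a copy of `H`.  Then `q_f(F_H) ≤ K q(F_H)` with the
universal constant `K = 49152 e^9`.

Proof.  Put `q = p / K`.  If some subgraph `F' ⊆ H` has fewer than `1/2` expected copies in `G(n,q)`,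
the copies of `F'` form a cover of cost `< 1/2` at `q`.  Otherwise the domination theorem for forests
(P064 library) shows that the uniform measure on the copies of `H` is `p`-spread, and then every
fractional cover costs at least `1` at `p`.
-/

namespace Vale.Agent.Results.P034.ForestCopies

open Finset Vale.Agent.Lib.P064

section defs

variable {X : Type*} [Fintype X] [DecidableEq X]

/-- `G` covers `F`: every member of `F` contains a member of `G`. -/
def Covers (G F : Finset (Finset X)) : Prop := ∀ H ∈ F, ∃ S ∈ G, S ⊆ H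

/-- The cost `c_p(G) = ∑_{S ∈ G} p ^ |S|` of a family at `p`. -/
noncomputable def cost (p : ℝ) (G : Finset (Finset X)) : ℝ := ∑ S ∈ G, p ^ S.card

/-- `F` is `p`-small: some cover of `F` has cost at most `1/2` at `p`. -/
def IsSmall (p : ℝ) (F : Finset (Finset X)) : Prop := ∃ G, Covers G F ∧ cost p G ≤ 1 / 2

/-- `g : 2^X → [0,1]` is a fractional cover of `F`. -/
structure IsFracCover (g : Finset X → ℝ) (F : Finset (Finset X)) : Prop where
  nonneg : ∀ S, 0 ≤ g S
  le_one : ∀ S, g S ≤ 1
  covers : ∀ H ∈ F, 1 ≤ ∑ S ∈ H.powerset, g S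

/-- The cost `w(g,p) = ∑_{S ⊆ X} g(S) p ^ |S|` of a fractional cover at `p`. -/
noncomputable def fracCost (g : Finset X → ℝ) (p : ℝ) : ℝ := ∑ S : Finset X, g S * p ^ S.card

/-- The integral expectation threshold `q(F)`. -/
noncomputable def expThreshold (F : Finset (Finset X)) : ℝ :=
  sSup {p : ℝ | 0 ≤ p ∧ p ≤ 1 ∧ IsSmall p F}

/-- The fractional expectation threshold `q_f(F)`. -/
noncomputable def fracThreshold (F : Finset (Finset X)) : ℝ :=
  sSup {p : ℝ | 0 ≤ p ∧ p ≤ 1 ∧ ∃ g, IsFracCover g F ∧ fracCost g p ≤ 1 / 2}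

end defs

open Classical in
/-- The increasing family `F_H`: all sets `A` of edges of `K_n` that contain the edge set of some
graph `H'` isomorphic to `H`.  (`EX n` is the set of edges of `K_n`, `toW H'` the edge set of `H'`.) -/
noncomputable def containsCopy {n : ℕ} (H : SimpleGraph (Fin n)) : Finset (Finset (EX n)) :=
  univ.filter fun A => ∃ H' : SimpleGraph (Fin n), Nonempty (H' ≃g H) ∧ toW H' ⊆ A

theorem result (n : ℕ) (H : SimpleGraph (Fin n)) (hH : H.IsAcyclic) (hne : H ≠ ⊥) :
    (∀ (g : Finset (EX n) → ℝ) (p : ℝ), 0 ≤ p → p ≤ 1 → IsFracCover g (containsCopy H) →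
      fracCost g p ≤ 1 / 2 → IsSmall (p / (49152 * Real.exp 9)) (containsCopy H)) ∧
    fracThreshold (containsCopy H) ≤ 49152 * Real.exp 9 * expThreshold (containsCopy H) := by
  classical
  have hL : (1 : ℝ) ≤ 49152 * Real.exp 9 := by
    have : (1 : ℝ) ≤ Real.exp 9 := Real.one_le_exp (by norm_num)
    linarith
  have hL0 : (0 : ℝ) < 49152 * Real.exp 9 := by linarith
  have hedge : 0 < numEdges H := by
    rw [Nat.pos_iff_ne_zero]
    intro h0
    apply hne
    rw [numEdges, Set.ncard_eq_zero (Set.toFinite _)] at h0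
    exact SimpleGraph.edgeSet_eq_empty.mp h0
  have key : ∀ (g : Finset (EX n) → ℝ) (p : ℝ), 0 ≤ p → p ≤ 1 → IsFracCover g (containsCopy H) →
      fracCost g p ≤ 1 / 2 → IsSmall (p / (49152 * Real.exp 9)) (containsCopy H) := by
    intro g p hp0 hp1 hg hcost
    by_cases h : ∀ F : SimpleGraph (Fin n), F ≤ H → 1 / 2 ≤ expCopies (p / (49152 * Real.exp 9)) F
    · exfalso
      have hppos : 0 < p := by
        rcases hp0.lt_or_eq with h1 | h1
        · exact h1
        · exfalso
          have h2 := h H le_rfl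
          rw [← h1, zero_div, expCopies_eq, zero_pow hedge.ne', mul_zero] at h2
          norm_num at h2
      have hq0 : 0 < p / (49152 * Real.exp 9) := div_pos hppos hL0
      have hsp : ∀ F : SimpleGraph (Fin n),
          ((embSet F H).card : ℝ) ≤ p ^ numEdges F * (n.factorial : ℝ) := by
        intro F
        have := forest_spread _ hq0 H hH h F
        rwa [mul_div_cancel₀ _ hL0.ne'] at this
      have hcov : ∀ σ : Equiv.Perm (Fin n), 1 ≤ ∑ S ∈ (toW (imG σ H)).powerset, g S := by
        intro σ
        apply hg.covers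
        rw [containsCopy, Finset.mem_filter]
        exact ⟨Finset.mem_univ _, imG σ H, ⟨⟨σ.symm, Iff.rfl⟩⟩, Finset.Subset.refl _⟩
      have := Vale.Agent.Lib.P034b.one_le_fracCost_of_spread H p hsp g hg.nonneg hcov
      rw [fracCost] at hcost
      linarith
    · push_neg at h
      obtain ⟨F', hF', hlt⟩ := h
      obtain ⟨G, hG1, hG2⟩ :=
        Vale.Agent.Lib.P034b.exists_cover_of_subgraph H F' hF' (p / (49152 * Real.exp 9))
      refine ⟨G, ?_, ?_⟩
      · intro A hA
        rw [containsCopy, Finset.mem_filter] at hA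
        obtain ⟨_, H', hiso, hsub⟩ := hA
        obtain ⟨S, hS, hSsub⟩ := hG1 H' hiso
        exact ⟨S, hS, hSsub.trans hsub⟩
      · rw [cost, hG2]
        exact hlt.le
  refine ⟨key, ?_⟩
  have hbdd : BddAbove {p : ℝ | 0 ≤ p ∧ p ≤ 1 ∧ IsSmall p (containsCopy H)} :=
    ⟨1, fun x hx => hx.2.1⟩
  have hnn : 0 ≤ expThreshold (containsCopy H) :=
    Real.sSup_nonneg (fun x hx => hx.1)
  apply Real.sSup_le _ (by positivity)
  rintro p ⟨hp0, hp1, g, hg, hcost⟩
  have hsmall := key g p hp0 hp1 hg hcost
  have hmem : p / (49152 * Real.exp 9) ∈ {p : ℝ | 0 ≤ p ∧ p ≤ 1 ∧ IsSmall p (containsCopy H)} := by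
    refine ⟨by positivity, ?_, hsmall⟩
    rw [div_le_one hL0]
    linarith
  have hle : p / (49152 * Real.exp 9) ≤ expThreshold (containsCopy H) := le_csSup hbdd hmem
  rw [div_le_iff₀ hL0] at hle
  linarith

end Vale.Agent.Results.P034.ForestCopies
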