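import Vale.Agent.Lib.P034.SparseLocal

/-!
# P034: Talagrand's fractional-versus-integral conjecture for locally sparse supports

Let `M` be a subfamily of `F` generating `F` (every member of `F` contains a member of `M`; for
instance the minimal members of an increasing family).  If a fractional cover `g` of `F` of cost at
most `1/2` at `p` has the property that inside every `A ∈ M`, every support set `S ⊆ A` meets at
most `C ^ |S|` support sets `S' ⊆ A` of the same size (itself included), then `F` is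
`p / (6 C)`-small.
-/

namespace Vale.Agent.Results.P034.LocalSparse

open Finset

variable {X : Type*} [Fintype X] [DecidableEq X]

/-- `G` covers `F`: every member of `F` contains a member of `G`. -/
def Covers (G F : Finset (Finset X)) : Prop := ∀ H ∈ F, ∃ S ∈ G, S ⊆ H

/-- The cost `c_p(G) = ∑_{S ∈ G} p ^ |S|` of a family at `p`. -/
noncomputable def cost (p : ℝ) (G : Finset (Finset X)) : ℝ := ∑ S ∈ G, p ^ S.card

/-- `F` is `p`-small: some cover of `F` has cost at most `1/2` at `p`. -/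
def IsSmall (p : ℝ) (F : Finset (Finset X)) : Prop := ∃ G, Covers G F ∧ cost p G ≤ 1 / 2

/-- `g : 2^X → [0,1]` is a fractional cover of `F`. -/
structure IsFracCover (g : Finset X → ℝ) (F : Finset (Finset X)) : Prop where
  nonneg : ∀ S, 0 ≤ g S
  le_one : ∀ S, g S ≤ 1
  covers : ∀ H ∈ F, 1 ≤ ∑ S ∈ H.powerset, g S

/-- The cost `w(g,p) = ∑_{S ⊆ X} g(S) p ^ |S|` of a fractional cover at `p`. -/
noncomputable def fracCost (g : Finset X → ℝ) (p : ℝ) : ℝ := ∑ S : Finset X, g S * p ^ S.card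

/-- The integral expectation threshold `q(F)`. -/
noncomputable def expThreshold (F : Finset (Finset X)) : ℝ :=
  sSup {p : ℝ | 0 ≤ p ∧ p ≤ 1 ∧ IsSmall p F}

/-- The support of `g` is `C`-sparse inside `A`, size by size: every `S ⊆ A` with `g S ≠ 0` meets
at most `C ^ |S|` sets `S' ⊆ A` with `g S' ≠ 0` and `|S'| = |S|` (the set `S` itself is counted). -/
def IsSparseIn (C : ℝ) (g : Finset X → ℝ) (A : Finset X) : Prop :=
  ∀ S ⊆ A, g S ≠ 0 →
    ((A.powerset.filter fun S' => g S' ≠ 0 ∧ S'.card = S.card ∧ ¬ Disjoint S S').card : ℝ)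
      ≤ C ^ S.card

theorem result (C : ℝ) (hC : 1 ≤ C) {X : Type*} [Fintype X] [DecidableEq X]
    (F M : Finset (Finset X)) (hMF : M ⊆ F) (hgen : ∀ H ∈ F, ∃ A ∈ M, A ⊆ H)
    (g : Finset X → ℝ) (p : ℝ) (hp0 : 0 ≤ p) (hp1 : p ≤ 1)
    (hg : IsFracCover g F) (hcost : fracCost g p ≤ 1 / 2)
    (hsparse : ∀ A ∈ M, IsSparseIn C g A) :
    IsSmall (p / (6 * C)) F ∧ p ≤ 6 * C * expThreshold F := by
  have hsmall : IsSmall (p / (6 * C)) F := by
    obtain ⟨G, hG, hGc⟩ := Vale.Agent.Lib.P034.sparse_core_local C hC M g p hp0 hg.nonneg hg.le_one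
      (fun H hH => hg.covers H (hMF hH)) hcost hsparse
    refine ⟨G, ?_, hGc⟩
    intro H hH
    obtain ⟨A, hA, hAH⟩ := hgen H hH
    obtain ⟨S, hS, hSA⟩ := hG A hA
    exact ⟨S, hS, hSA.trans hAH⟩
  refine ⟨hsmall, ?_⟩
  have hC6 : (0:ℝ) < 6 * C := by linarith
  have hmem : p / (6 * C) ∈ {p : ℝ | 0 ≤ p ∧ p ≤ 1 ∧ IsSmall p F} := by
    refine ⟨by positivity, ?_, hsmall⟩
    rw [div_le_one hC6]
    linarith
  have hbdd : BddAbove {p : ℝ | 0 ≤ p ∧ p ≤ 1 ∧ IsSmall p F} := ⟨1, fun x hx => hx.2.1⟩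
  have hle : p / (6 * C) ≤ expThreshold F := le_csSup hbdd hmem
  rw [div_le_iff₀ hC6] at hle
  linarith

end Vale.Agent.Results.P034.LocalSparse
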